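import Vale.Agent.P097.H194.St.PickU
import Vale.Agent.P097.H855.St.ExitC
import Vale.Agent.P097.H557.St.BG
import Vale.Agent.P097.H514.St.H
import Vale.Agent.P097.H561.Anc
import Vale.Agent.P097.H19.Lat

/-!
# P097 / case [c] / block (T), straight line: assembly of `SelSt`
-/

set_option linter.all false

open Complex Metric Filter Topology Set MeasureTheory
open scoped ComplexConjugate ENNReal

namespace Vale.Agent.P097.H531.ST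

open Vale.Agent.P097.TC Vale.Agent.P097.H226.W Vale.Agent.P097.H315 Vale.Agent.P097.H845.St
open Vale.Agent.P097.H509.St

theorem md_mono {b : ℝ} {F : ℂ → ℂ} {th : ℂ × ℂ → ℂ} {X X' om e h : ℝ} (hX : X ≤ X') (hh : 0 < h)
    (H : Md b F th X om e h) : Md b F th X' om e h := by
  obtain ⟨β, b1, b2, b3, b4, b5⟩ := H
  exact ⟨β, b1, b2, b3.trans (mul_le_mul_of_nonneg_right hX hh.le), b4, b5⟩

theorem tr_apx (y x : ℝ) (f : ℂ × ℂ → ℂ) : (f ∘ tr y x) = fun z => f (z + H561.Anc.apx y x) := by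
  funext z
  have : tr y x z = z + H561.Anc.apx y x := by
    refine Prod.ext ?_ ?_
    · show (y : ℂ) + z.1 = z.1 + (y : ℂ)
      ring
    · show (x : ℂ) + z.2 = z.2 + (x : ℂ)
      ring
  rw [Function.comp_apply, this]

theorem nums {X X' κ : ℝ} (hX : 2 ≤ X) (hX' : X + 2 ≤ X') (hκ : 0 < κ) (M : ℝ → ℕ) :
    ∃ S κ' : ℝ, ∃ m : ℕ, 0 < S ∧ (X' + 5) * S = 1 / 2 ∧ (X + 5) * S ≤ 1 / 2 ∧
      (X + 2 + 1) * S ≤ 1 / 2 ∧ 0 < κ' ∧ κ' ≤ κ ∧ κ' ≤ S ∧ κ' ≤ 1 / (4 * (X + 2)) ∧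
      M κ' ≤ m ∧ (1 / 2 : ℝ) ^ m ≤ κ' / 2 ∧ (X + 5) * (1 / 2 : ℝ) ^ m ≤ 1 / 4 ∧
      (X + 2) * (1 / 2 : ℝ) ^ m ≤ 1 / 4 ∧ (1 / 2 : ℝ) ^ m ≤ 1 / 4 := by
  have hX5 : 0 < X' + 5 := by linarith
  have hS0 : 0 < 1 / (2 * (X' + 5)) := by positivity
  have hS1 : (X' + 5) * (1 / (2 * (X' + 5))) = 1 / 2 := by
    have : X' + 5 ≠ 0 := hX5.ne'
    field_simp
  have hκ'0 : 0 < min κ (min (1 / (2 * (X' + 5))) (1 / (4 * (X + 2)))) :=
    lt_min hκ (lt_min hS0 (by positivity))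
  obtain ⟨m₁, hm₁⟩ := exists_pow_lt_of_lt_one
    (show 0 < min (min κ (min (1 / (2 * (X' + 5))) (1 / (4 * (X + 2)))) / 2)
      (1 / (4 * (X + 5))) from lt_min (half_pos hκ'0) (by positivity))
    (show (1 / 2 : ℝ) < 1 by norm_num)
  refine ⟨1 / (2 * (X' + 5)), min κ (min (1 / (2 * (X' + 5))) (1 / (4 * (X + 2)))),
    max (M (min κ (min (1 / (2 * (X' + 5))) (1 / (4 * (X + 2)))))) m₁, hS0, hS1, ?_, ?_, hκ'0,
    min_le_left _ _, (min_le_right _ _).trans (min_le_left _ _),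
    (min_le_right _ _).trans (min_le_right _ _), le_max_left _ _, ?_⟩
  · rw [← hS1]; exact mul_le_mul_of_nonneg_right (by linarith) hS0.le
  · rw [← hS1]; exact mul_le_mul_of_nonneg_right (by linarith) hS0.le
  have hmle : (1 / 2 : ℝ) ^ (max (M (min κ (min (1 / (2 * (X' + 5))) (1 / (4 * (X + 2)))))) m₁) ≤
      min (min κ (min (1 / (2 * (X' + 5))) (1 / (4 * (X + 2)))) / 2) (1 / (4 * (X + 5))) :=
    (pow_le_pow_of_le_one (by norm_num) (by norm_num) (le_max_right _ _)).trans hm₁.le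
  have hm2 := hmle.trans (min_le_left _ _)
  have hm3 := hmle.trans (min_le_right _ _)
  have hm0 : (0 : ℝ) < (1 / 2 : ℝ) ^
    (max (M (min κ (min (1 / (2 * (X' + 5))) (1 / (4 * (X + 2)))))) m₁) := by positivity
  generalize (1 / 2 : ℝ) ^
    (max (M (min κ (min (1 / (2 * (X' + 5))) (1 / (4 * (X + 2)))))) m₁) = t at hm2 hm3 hm0 ⊢
  have hm5 : (X + 5) * t ≤ 1 / 4 := by
    have h1 := mul_le_mul_of_nonneg_left hm3 (show 0 ≤ X + 5 by linarith)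
    have h2 : (X + 5) * (1 / (4 * (X + 5))) = 1 / 4 := by
      have : X + 5 ≠ 0 := by linarith
      field_simp
    linarith
  exact ⟨hm2, hm5, by nlinarith, by nlinarith⟩

/-- the zone: bounds of the line -/
theorem zone_bd {Λ b : ℝ} {F q : ℂ → ℂ} {al p th : ℂ × ℂ → ℂ} {Xp om y' R₁ ρ₀ e : ℝ} {m n : ℕ}
    {z₀ : ℂ × ℂ} (hρ1 : ρ₀ ≤ 1) (hz3 : |(al z₀).im| ≤ R₁) (hz4 : ‖p z₀‖ ≤ R₁)
    (hn2 : ∀ i < n, ∀ z ∈ Pc Xp om y' 0 ((1 / 2) ^ (m + i)),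
      ‖LL al p z - LL al p z₀‖ < ρ₀ ∧ |(th z).im| ≤ b - e / 2 ∧
        e / 2 ≤ ‖deriv F (th z)‖ ∧ ‖th z - th z₀‖ < 1 ∧ ‖F (th z) - F (th z₀)‖ < 1) :
    ∀ j < n, ∀ z ∈ Pc Xp om y' 0 ((1 / 2 : ℝ) ^ (m + j)),
      |(th z).im| ≤ b - e / 2 ∧ e / 2 ≤ ‖deriv F (th z)‖ ∧ |(al z).im| ≤ R₁ + 1 ∧
        ‖p z‖ ≤ R₁ + 1 := by
  intro j hj z hz
  obtain ⟨c1, c2, c3, -, -⟩ := hn2 j hj z hz
  have d1 : ‖al z - al z₀‖ ≤ 1 := by
    have : ‖al z - al z₀‖ ≤ ‖LL al p z - LL al p z₀‖ := le_max_left _ _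
    linarith
  have d2 : ‖p z - p z₀‖ ≤ 1 := by
    have : ‖p z - p z₀‖ ≤ ‖LL al p z - LL al p z₀‖ := le_max_right _ _
    linarith
  refine ⟨c2, c3, ?_, ?_⟩
  · have h1 : (al z).im = (al z - al z₀).im + (al z₀).im := by simp
    rw [h1]
    have h2 := Complex.abs_im_le_norm (al z - al z₀)
    exact (abs_add_le _ _).trans (by linarith)
  · have h1 : p z = (p z - p z₀) + p z₀ := by ring
    rw [h1]
    exact (norm_add_le _ _).trans (by linarith)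

/-- (H) -/
theorem hH_of {Λ b : ℝ} {F q : ℂ → ℂ} {al p th : ℂ × ℂ → ℂ} (W : SQ Λ b F q 1 al p th)
    {Xp om y x r D : ℝ} (hXp0 : 0 < Xp) (hom : 0 < om) (a2 : 0 < r) (a9 : |y| ≤ 1 / 4)
    (a10 : |x| ≤ 1 / 4) (hD : D ≤ 1 / (4 * Xp))
    (a11 : ∀ h : ℝ, r ≤ h → h ≤ D → h ≤ 1 / (4 * Xp) →
      Es (LL al p) Xp om y x h ≤ 12 * Es (LL al p) Xp om y x r * (r / h) ^ 2) :
    ∀ h, r ≤ h → h ≤ D → 12 * (r / h) ^ 2 < 1 → ∀ z ∈ Pc Xp om y x h,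
      ∀ z' ∈ Pc Xp om y x h,
      ‖((al z, p z) : ℂ × ℂ) - (al z', p z')‖ ≤ 12 * (r / h) ^ 2 := by
  intro h h1 h2 h3 z hz z' hz'
  have hh : 0 < h := a2.trans_le h1
  have h4 := a11 h h1 h2 (h2.trans hD)
  have hE1 : Es (LL al p) Xp om y x r ≤ 1 := min_le_left _ _
  have h6 : Es (LL al p) Xp om y x h ≤ 12 * (r / h) ^ 2 := by
    refine h4.trans ?_
    have h5 : 0 ≤ (r / h) ^ 2 := by positivity
    calc 12 * Es (LL al p) Xp om y x r * (r / h) ^ 2 ≤ 12 * 1 * (r / h) ^ 2 :=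
          mul_le_mul_of_nonneg_right (mul_le_mul_of_nonneg_left hE1 (by norm_num)) h5
      _ = _ := by ring
  obtain ⟨e1, e2⟩ := H514.St.H_of W hXp0 hom a9 a10 hh (h2.trans hD) h6 h3 z hz z' hz'
  exact max_le e1 e2

/-- **SEL** in straight coordinates -/
theorem sel_of (hL : H226.W.Lat) : SelSt := by
  intro Λ b F q cv gr per X om e V hX hom hom2 he hV
  have crv := H855.St.crv_of cv gr per
  have hX1 : 1 ≤ X := by linarith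
  have hom1 : om ≤ 1 := by linarith
  have he2 : 0 < e / 2 := half_pos he
  obtain ⟨R₁, hR₁0, hst⟩ := H557.St.start_st hL cv gr (V₁ := V) he hX1 hom hom1
  obtain ⟨R₂, hR₂0, hbg⟩ := H557.St.bg_st hL cv gr (V₁ := V) he hX1 hom hom1
  obtain ⟨ρ₀, hρ0, hρ1, hex⟩ := H855.St.exit_sw crv (c₀ := e) (d := e) (R := R₁) he he
  obtain ⟨X₁, hX₁, e₁, he₁, V₁, hV₁, hanc⟩ := H561.Anc.anc_st crv (X := X + 2) (om := om)
    (e := min e (e / 2)) (R := max R₂ (R₁ + 1)) (C₀ := 12) (by linarith) hom hom2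
    (lt_min he he2) (by norm_num)
  have hX'1 : X + 2 ≤ max X₁ (X + 2) := le_max_right _ _
  have hX'2 : X₁ ≤ max X₁ (X + 2) := le_max_left _ _
  refine ⟨X + 2, om, max X₁ (X + 2), om, e₁, V₁, 12, ⟨by linarith, hom, hom2, hX'1,
    hom, le_rfl, he₁, hV₁, by norm_num⟩, ?_⟩
  generalize max X₁ (X + 2) = X' at hX'1 hX'2 ⊢
  intro η κ hη hκ δ al p th W hM hwall A B hB hA hJ
  have hXp0 : 0 < X + 2 := by linarith
  have hex2 : ∀ κ' : ℝ, ∃ M : ℕ, 0 < κ' → ∀ {L : ℂ × ℂ → ℂ × ℂ} {op : ℝ} {m : ℕ}, M ≤ m →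
      ∀ {y' : ℝ}, |y'| ≤ 1 / 4 → |y'| ≤ κ' / 2 → ∀ {n : ℕ},
      ρ₀ ≤ ∑ i ∈ Finset.range (n + 1), Es L (X + 2) op y' 0 ((1 / 2) ^ (m + i)) →
      ∃ i ≤ n, ∃ y x r : ℝ, |y| + |x| + r ≤ κ' ∧ 0 < r ∧ r ≤ 1 / (4 * (X + 2)) ∧
        0 < Es L (X + 2) op y x r ∧
        Marc.Mz A B x r < ENNReal.ofReal η ∧ GG L (X + 2) op 12 (Es L (X + 2) op y x r) y x r ∧
        r * max (Real.log (Es L (X + 2) op y x r)⁻¹) 0 ≤ κ' ∧
        |y' - y| + |x| + (1 / 2) ^ (m + i) + r ≤ κ' * Es L (X + 2) op y x r ∧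
        |y| ≤ 1 / 4 ∧ |x| ≤ 1 / 4 ∧
        ∀ h : ℝ, r ≤ h → h ≤ |y' - y| + |x| + (1 / 2) ^ (m + i) + r → h ≤ 1 / (4 * (X + 2)) →
          Es L (X + 2) op y x h ≤ 12 * Es L (X + 2) op y x r * (r / h) ^ 2 := by
    intro κ'
    by_cases hκ' : 0 < κ'
    · obtain ⟨M, hM⟩ := H194.St.pick_defs hB hA hη hJ hρ0 hρ1 hκ' hXp0
      exact ⟨M, fun _ => hM⟩
    · exact ⟨0, fun h => absurd h hκ'⟩
  choose M hpick using hex2
  obtain ⟨S, κ', m, hS0, hS1, hXS, hXS3, hκ'0, hκ1, hκ2, hκ3, hmM, hm2, hm5, hm6, hm7⟩ :=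
    nums hX hX'1 hκ M
  have hm0 : (0 : ℝ) < (1 / 2 : ℝ) ^ m := by positivity
  obtain ⟨y', hy', hw⟩ := hwall _ hm0
  have hy4 : |y'| ≤ 1 / 4 := hy'.le.trans hm7
  -- the start
  obtain ⟨hMd, hVq⟩ := hM ((1 / 2 : ℝ) ^ m) hm0 (hm5.trans (by norm_num))
  obtain ⟨z₀, -, -, -, hz0, hz1, hz2, hz3, hz4⟩ := hst W.sq ((1 / 2 : ℝ) ^ m) hm0
    (hm5.trans (by norm_num)) hMd hVq
  have hz0' := hz0 (X + 2) om y' 0 le_rfl le_rfl (by linarith) (by rw [abs_zero]; positivity)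
  obtain ⟨n, hn1, hn2⟩ := hex (X := X + 2) (om := om) (by linarith) hom hom2 W (y' := y') (x' := 0)
    (m := m) (by linarith) (by rw [abs_zero]; linarith) hz0' hz1 hz2 hz3 hw ρ₀ le_rfl
  have hZ := zone_bd (Λ := Λ) (b := b) (F := F) (q := q) (th := th) hρ1 hz3 hz4 hn2
  obtain ⟨i, hi, y, x, r, a1, a2, a3, a4, a5, a6, a7, a8, a9, a10, a11⟩ :=
    hpick κ' hκ'0 (L := LL al p) (op := om) (m := m) hmM hy4 (hy'.le.trans hm2) hn1
  have hE1 : Es (LL al p) (X + 2) om y x r ≤ 1 := min_le_left _ _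
  have hBG := hbg W.sq S (hXS.trans (by norm_num)) (fun h h0 hhS => hM h h0 (by
      have := mul_le_mul_of_nonneg_left hhS (show 0 ≤ X + 5 by linarith)
      linarith)) (X + 2) om le_rfl le_rfl (e / 2) (R₁ + 1) m n i y' y x r hy'.le hZ hi a2
  have hpi : (0 : ℝ) < (1 / 2 : ℝ) ^ (m + i) := by positivity
  have hrD : r ≤ |y' - y| + |x| + (1 / 2) ^ (m + i) + r := by
    have h1 := abs_nonneg (y' - y)
    have h2 := abs_nonneg x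
    linarith
  generalize |y' - y| + |x| + (1 / 2) ^ (m + i) + r = D at a8 a11 hBG hrD
  have hDκ : D ≤ κ' := a8.trans (by
    have := mul_le_mul_of_nonneg_left hE1 hκ'0.le
    rwa [mul_one] at this)
  have hH := hH_of W.sq hXp0 hom a2 a9 a10 (hDκ.trans hκ3) a11
  have hfin := hanc W.sq (y := y) (x := x) (r := r) (D := D) (S := S) a2 hrD (hDκ.trans hκ2)
    (by linarith) (by linarith) (fun h h1 h2 => by
      obtain ⟨β, k1, k2, k3, k4, -⟩ := hBG h h1 h2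
      exact ⟨β, k1, k2, k3, k4⟩) hH
  refine ⟨y, x, r, Es (LL al p) (X + 2) om y x r, ⟨a1.trans hκ1, a2, a4, rfl, a5, a6, ?_,
    a7.trans hκ1⟩⟩
  intro h h1 h2
  have hhS : h ≤ S := by
    have h3 : (X' + 5) * h ≤ (X' + 5) * S := by rw [hS1]; exact h2
    exact le_of_mul_le_mul_left h3 (by linarith)
  obtain ⟨k1, k2, -⟩ := hfin h h1 hhS
  refine ⟨?_, ?_⟩
  · rw [tr_apx]
    exact md_mono hX'2 (a2.trans_le h1) k1
  · rw [tr_apx, tr_apx]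
    exact k2

theorem sel_st : SelSt := sel_of H19.lat

end Vale.Agent.P097.H531.ST
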